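import Vale.Agent.P068.Swap

namespace Vale.Agent.P068

open Set
open scoped Matroid

variable {α : Type*} {M N : Matroid α} {J : Set α} {x y x₀ y₁ x₁ : α}

/-- elements outside `J` from which a sink is reachable by an alternating walk with `n` double
steps. -/
def Lev (M N : Matroid α) (J : Set α) : ℕ → Set α
  | 0 => N.E \ N.closure J
  | n + 1 => {x | ∃ y x', Arc N J y x ∧ Arc M J y x' ∧ x' ∈ Lev M N J n}

lemma lev_persist (hJM : M.Indep J) (hJN : N.Indep J) (hx0J : x₀ ∉ M.closure J)
    (h0 : Arc N J y₁ x₀) {k : ℕ} (hmin : ∀ m ≤ k, x₀ ∉ Lev M N J m) :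
    ∀ j ≤ k, ∀ x ∈ Lev M N J j, x ≠ x₀ → x ∈ Lev M N (insert x₀ (J \ {y₁})) j := by
  intro j
  induction j with
  | zero =>
    intro _ x hx _
    simp only [Lev] at hx ⊢
    rwa [swap_closure_of_arc h0]
  | succ j ih =>
    intro hj x hx hne
    obtain ⟨y, x', hN, hM, hx'⟩ := hx
    have hjk : j ≤ k := by omega
    have hx'ne : x' ≠ x₀ := by
      rintro rfl
      exact hx0J hM.2.1
    refine ⟨y, x', ?_, ?_, ih hjk x' hx' hx'ne⟩
    · apply arc_swap_of_arc hJN h0 hN _ hne
      by_contra hcon
      exact hmin (j + 1) hj ⟨y, x', ⟨hN.1, h0.2.1, h0.2.2.1, hcon⟩, hM, hx'⟩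
    · apply arc_swap_of_source hJM hx0J hM
      by_contra hcon
      exact hmin (j + 1) hj ⟨y₁, x', h0, ⟨h0.1, hM.2.1, hM.2.2.1, hcon⟩, hx'⟩

/-- relative rank of `X` over `I`. -/
noncomputable def relRk (M : Matroid α) (I X : Set α) : ℕ∞ := (M ／ I).eRk X

lemma relRk_insert {I X : Set α} {e : α} (h : M.Indep (insert e I)) (heI : e ∉ I)
    (hX : insert e I ⊆ X) (hXE : X ⊆ M.E) :
    relRk M I X = relRk M (insert e I) X + 1 := by
  obtain ⟨B, hB, hIB⟩ := h.subset_isBasis_of_subset hX hXE
  have h1 := hB.isBasis'.contract_isBasis'_sdiff_of_subset ((subset_insert e I).trans hIB)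
  have h2 := hB.isBasis'.contract_isBasis'_sdiff_of_subset hIB
  rw [relRk, relRk, ← h1.encard_eq_eRk, ← h2.encard_eq_eRk]
  have : B \ I = insert e (B \ insert e I) := by
    ext z
    simp only [mem_sdiff, mem_insert_iff, not_or]
    constructor
    · rintro ⟨hz, hzI⟩
      by_cases hze : z = e
      · exact Or.inl hze
      · exact Or.inr ⟨hz, hze, hzI⟩
    · rintro (rfl | ⟨hz, _, hzI⟩)
      · exact ⟨hIB (mem_insert _ _), heI⟩
      · exact ⟨hz, hzI⟩
  rw [this, encard_insert_of_notMem (by simp)]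

/-- the deficiency of `J` with respect to the bipartition `(A, E \ A)`. -/
noncomputable def defect (M N : Matroid α) (A J : Set α) : ℕ∞ :=
  relRk M (J ∩ A) A + relRk N (J \ A) (N.E \ A)

lemma defect_insert {A K : Set α} {e : α} (hA : A ⊆ M.E) (hM : M.Indep (insert e K))
    (hN : N.Indep (insert e K)) (heK : e ∉ K) :
    defect M N A K = defect M N A (insert e K) + 1 := by
  unfold defect
  by_cases heA : e ∈ A
  · rw [insert_inter_of_mem heA, insert_sdiff_of_mem _ heA,
      relRk_insert (M := M) (I := K ∩ A) (X := A) (e := e)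
        (hM.subset (insert_subset_insert inter_subset_left)) (fun h => heK h.1)
        (insert_subset heA inter_subset_right) hA]
    exact add_right_comm _ _ _
  · rw [insert_inter_of_notMem heA, insert_sdiff_of_notMem _ heA,
      relRk_insert (M := N) (I := K \ A) (X := N.E \ A) (e := e)
        (hN.subset (insert_subset_insert sdiff_subset)) (fun h => heK h.1)
        (insert_subset ⟨hN.subset_ground (mem_insert _ _), heA⟩
          (sdiff_subset_sdiff_left ((subset_insert _ _).trans hN.subset_ground))) sdiff_subset]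
    exact (add_assoc _ _ _).symm

theorem exists_augment {A : Set α} (hA : A ⊆ M.E) :
    ∀ n, ∀ J, M.Indep J → N.Indep J →
      (∃ x₀ ∈ M.E, x₀ ∉ M.closure J ∧ x₀ ∈ Lev M N J n) →
      ∃ J', M.Indep J' ∧ N.Indep J' ∧ defect M N A J = defect M N A J' + 1 := by
  intro n
  induction n using Nat.strong_induction_on with
  | _ n ih =>
    intro J hJM hJN ⟨x₀, hx0E, hx0J, hx0L⟩
    by_cases hmin : ∃ m < n, ∃ x ∈ M.E, x ∉ M.closure J ∧ x ∈ Lev M N J m
    · obtain ⟨m, hm, hx⟩ := hmin
      exact ih m hm J hJM hJN hx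
    · push Not at hmin
      have hx0notJ : x₀ ∉ J := fun h => hx0J (M.mem_closure_of_mem' h hx0E)
      cases n with
      | zero =>
        refine ⟨insert x₀ J, ?_, ?_, ?_⟩
        · rw [hJM.insert_indep_iff]; exact Or.inl ⟨hx0E, hx0J⟩
        · rw [hJN.insert_indep_iff]; exact Or.inl hx0L
        · apply defect_insert hA _ _ hx0notJ
          · rw [hJM.insert_indep_iff]; exact Or.inl ⟨hx0E, hx0J⟩
          · rw [hJN.insert_indep_iff]; exact Or.inl hx0L
      | succ k =>
        obtain ⟨y₁, x₁, hN, hM, hx1⟩ := hx0L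
        have hJ1M := swap_indep_of_source (y₁ := y₁) hJM hx0E hx0J
        have hJ1N := swap_indep_of_arc hJN hN
        have hx1src := source_swap hJM hx0J hM
        have hx1E : x₁ ∈ M.E := M.closure_subset_ground _ hM.2.1
        have hx1ne : x₁ ≠ x₀ := by
          rintro rfl
          exact hx0J hM.2.1
        have hx1L := lev_persist hJM hJN hx0J hN (k := k)
          (fun m hm => hmin m (by omega) x₀ hx0E hx0J) k le_rfl x₁ hx1 hx1ne
        obtain ⟨J', hJ'M, hJ'N, hJ'⟩ := ih k (by omega) _ hJ1M hJ1N ⟨x₁, hx1E, hx1src, hx1L⟩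
        refine ⟨J', hJ'M, hJ'N, ?_⟩
        rw [← hJ']
        have hins : insert y₁ (J \ {y₁}) = J := by
          rw [insert_sdiff_singleton, insert_eq_of_mem hN.1]
        have e1 : defect M N A (J \ {y₁}) = defect M N A J + 1 := by
          have := defect_insert (M := M) (N := N) (A := A) (K := J \ {y₁}) (e := y₁) hA
            (by rwa [hins]) (by rwa [hins]) (by simp)
          rwa [hins] at this
        have e2 : defect M N A (J \ {y₁}) = defect M N A (insert x₀ (J \ {y₁})) + 1 :=
          defect_insert hA hJ1M hJ1N (fun h => hx0notJ h.1)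
        exact ENat.add_left_injective_of_ne_top (by simp) (e1.symm.trans e2)

end Vale.Agent.P068
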