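import Mathlib.Combinatorics.Matroid.Sum
import Mathlib.Combinatorics.Matroid.Minor.Contract
import Mathlib.Combinatorics.Matroid.Rank.ENat

namespace Vale.Agent.P068

open Set

variable {α : Type*}

/-- The pair `(M, N)` satisfies intersection: some common independent set `J = JM ∪ JN`
(disjoint union) has `cl_M JM ∪ cl_N JN = E`. -/
def SatisfiesIntersection (M N : Matroid α) : Prop :=
  ∃ JM JN : Set α, Disjoint JM JN ∧ M.Indep (JM ∪ JN) ∧ N.Indep (JM ∪ JN) ∧
    M.closure JM ∪ N.closure JN = M.E

/-- A matroid is nearly uniform if every subset of its ground set becomes independent after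
deleting finitely many elements or becomes spanning after adding finitely many elements. -/
def NearlyUniform (N : Matroid α) : Prop :=
  ∀ X ⊆ N.E, (∃ F : Set α, F.Finite ∧ N.Indep (X \ F)) ∨
    (∃ F : Set α, F.Finite ∧ F ⊆ N.E ∧ N.Spanning (X ∪ F))

end Vale.Agent.P068
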