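import Vale.Agent.P068.Defs

namespace Vale.Agent.P068

open Set
open scoped Matroid Function

variable {α : Type*}

/-- A packing/covering partition for the family `M` of matroids on the common ground set `E`:
`E = P ⊔ C`, pairwise disjoint `S i ⊆ P` with `cl_{M i ↾ P} (S i) = P`, and sets `I i ⊆ C`
independent in the contraction `M i . C = ((M i)✶ ↾ C)✶` whose union is `C`. -/
def HasPackingCovering {Θ : Type*} (M : Θ → Matroid α) (E : Set α) : Prop :=
  ∃ P C : Set α, Disjoint P C ∧ P ∪ C = E ∧ ∃ S I : Θ → Set α,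
    (∀ i, S i ⊆ P) ∧ (∀ i, I i ⊆ C) ∧ Pairwise (Disjoint on S) ∧
    (∀ i, ((M i) ↾ P).closure (S i) = P) ∧ (∀ i, (((M i)✶ ↾ C)✶).Indep (I i)) ∧ (⋃ i, I i) = C

/-- A matroid is uniform if every subset of its ground set is independent or spanning. -/
def IsUniform (K : Matroid α) : Prop := ∀ X ⊆ K.E, K.Indep X ∨ K.Spanning X

/-- A direct sum of finitely many nearly uniform matroids. -/
def IsFiniteSumNU (K : Matroid α) : Prop :=
  ∃ (n : ℕ) (N : Fin n → Matroid α) (hdj : Pairwise (Disjoint on fun i => (N i).E)),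
    (∀ i, NearlyUniform (N i)) ∧ K = Matroid.disjointSigma N hdj

end Vale.Agent.P068
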