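import Vale.Agent.P068.Defs

namespace Vale.Agent.P068

open Set
open scoped Matroid

variable {α : Type*}

lemma nearlyUniform_of_uniform (N : Matroid α) (h : ∀ X ⊆ N.E, N.Indep X ∨ N.Spanning X) :
    NearlyUniform N := by
  intro X hX
  rcases h X hX with h | h
  · exact Or.inl ⟨∅, finite_empty, by simpa⟩
  · exact Or.inr ⟨∅, finite_empty, empty_subset _, by simpa⟩

lemma nearlyUniform_of_rankFinite (N : Matroid α) [N.RankFinite] : NearlyUniform N := by
  intro X hX
  obtain ⟨B, hB⟩ := N.exists_isBase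
  exact Or.inr ⟨B, hB.finite, hB.subset_ground,
    hB.spanning.superset subset_union_right (union_subset hX hB.subset_ground)⟩

lemma nearlyUniform_of_dual_rankFinite (N : Matroid α) [N✶.RankFinite] : NearlyUniform N := by
  intro X hX
  obtain ⟨I, hI⟩ := N.exists_isBasis X
  obtain ⟨B, hB, hIB⟩ := hI.indep.exists_isBase_superset
  have hfin : (N.E \ B).Finite := hB.compl_isBase_dual.finite
  refine Or.inl ⟨X \ I, hfin.subset ?_, ?_⟩
  · rintro z ⟨hzX, hzI⟩
    refine ⟨hX hzX, fun hzB => hzI ?_⟩
    exact hI.mem_of_insert_indep hzX (hB.indep.subset (insert_subset hzB hIB))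
  · rw [sdiff_sdiff_cancel_left hI.subset]
    exact hI.indep

end Vale.Agent.P068
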