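import Vale.Agent.P068.Defs

namespace Vale.Agent.P068

open Set
open scoped Matroid Function

variable {α ι : Type*}

/-- almost independent in `N` -/
def AI (N : Matroid α) (A : Set α) : Prop := ∃ F : Set α, F.Finite ∧ N.Indep ((A ∩ N.E) \ F)

/-- almost spanning in `N` -/
def AS (N : Matroid α) (A : Set α) : Prop :=
  ∃ F : Set α, F.Finite ∧ F ⊆ N.E ∧ N.Spanning ((A ∩ N.E) ∪ F)

lemma AI.mono' {N : Matroid α} {A B : Set α} (h : AI N B) (hAB : A ∩ N.E ⊆ B ∩ N.E) : AI N A := by
  obtain ⟨F, hF, hI⟩ := h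
  exact ⟨F, hF, hI.subset (sdiff_subset_sdiff_left hAB)⟩

lemma AI.mono {N : Matroid α} {A B : Set α} (h : AI N B) (hAB : A ⊆ B) : AI N A :=
  h.mono' (inter_subset_inter_left _ hAB)

lemma AS.mono {N : Matroid α} {A B : Set α} (h : AS N A) (hAB : A ⊆ B) : AS N B := by
  obtain ⟨F, hF, hFE, hS⟩ := h
  exact ⟨F, hF, hFE, hS.superset (union_subset_union_left _ (inter_subset_inter_left _ hAB))
    (union_subset inter_subset_right hFE)⟩

lemma exists_between {N : Matroid α} {P Q : Set α} (hPQ : P ⊆ Q) (hP : AI N P) (hQ : AS N Q) :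
    ∃ R, P ∩ N.E ⊆ R ∧ R ⊆ Q ∩ N.E ∧ AI N R ∧ AS N R := by
  obtain ⟨F, hF, hI⟩ := hP
  obtain ⟨F', hF', hF'E, hS⟩ := hQ
  obtain ⟨D, hD, hID⟩ := hI.subset_isBasis_of_subset
    (sdiff_subset.trans (inter_subset_inter_left _ hPQ)) inter_subset_right
  refine ⟨D ∪ (P ∩ N.E), subset_union_right,
    union_subset hD.subset (inter_subset_inter_left _ hPQ), ⟨F, hF, ?_⟩, ⟨F', hF', hF'E, ?_⟩⟩
  · apply hD.indep.subset
    rintro z ⟨⟨hz | hz, _⟩, hzF⟩
    · exact hz
    · exact hID ⟨hz, hzF⟩
  · have hsub : (D ∪ P ∩ N.E) ∩ N.E ∪ F' ⊆ N.E := union_subset inter_subset_right hF'E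
    rw [Matroid.spanning_iff_ground_subset_closure hsub]
    have h1 : N.E ⊆ N.closure (Q ∩ N.E ∪ F') := by
      rw [← Matroid.spanning_iff_ground_subset_closure (union_subset inter_subset_right hF'E)]
      exact hS
    refine h1.trans (N.closure_subset_closure_of_subset_closure ?_)
    rintro z (hz | hz)
    · exact N.closure_subset_closure
        (subset_union_of_subset_left (subset_inter subset_union_left hD.indep.subset_ground) _)
        (hD.subset_closure hz)
    · exact N.mem_closure_of_mem' (Or.inr hz) (hF'E hz)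

end Vale.Agent.P068

namespace Vale.Agent.P068

open Set
open scoped Matroid Function

variable {α ι : Type*}

/-- union of the ground sets of the components in `S` -/
def XS (N : ι → Matroid α) (S : Finset ι) : Set α := ⋃ i ∈ S, (N i).E

lemma subset_XS {N : ι → Matroid α} {S : Finset ι} {i : ι} (hi : i ∈ S) : (N i).E ⊆ XS N S :=
  subset_biUnion_of_mem (u := fun i => (N i).E) hi

lemma XS_mono {N : ι → Matroid α} {S T : Finset ι} (h : S ⊆ T) : XS N S ⊆ XS N T :=
  biUnion_subset_biUnion_left h

lemma disjoint_XS {N : ι → Matroid α} (hdj : Pairwise (Disjoint on fun i => (N i).E))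
    {S : Finset ι} {i : ι} (hi : i ∉ S) : Disjoint (XS N S) (N i).E := by
  unfold XS
  rw [disjoint_iUnion₂_left]
  intro j hj
  exact hdj (fun h => hi (h ▸ hj))

/-- a state: a set inside `XS N S`, independent in `M`, almost independent in each component -/
structure St (M : Matroid α) (N : ι → Matroid α) (S : Finset ι) (A : Set α) : Prop where
  sub : A ⊆ XS N S
  indep : M.Indep A
  ai : ∀ i ∈ S, AI (N i) A

/-- no nonempty union of components has a spanning state -/
def Hyp (M : Matroid α) (N : ι → Matroid α) (S : Finset ι) : Prop :=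
  ∀ S' ⊆ S, S'.Nonempty → ∀ I, St M N S' I → ¬ XS N S' ⊆ M.closure I

lemma Hyp.mono {M : Matroid α} {N : ι → Matroid α} {S T : Finset ι} (h : Hyp M N T) (hST : S ⊆ T) :
    Hyp M N S := fun S' hS' => h S' (hS'.trans hST)

/-- the extension property -/
def ExtP (M : Matroid α) (N : ι → Matroid α) (S : Finset ι) : Prop :=
  ∀ K, St M N S K → ∃ J, St M N S J ∧ K ⊆ M.closure J ∧ ∀ i ∈ S, AS (N i) J

section
variable {M : Matroid α} {N : ι → Matroid α} {S : Finset ι}

open Classical in
lemma claim_one (hdj : Pairwise (Disjoint on fun i => (N i).E))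
    (hyp : Hyp M N S) (ih : ∀ T ⊂ S, Hyp M N T → ExtP M N T) {A : Set α} (hA : St M N S A) :
    ∃ A', St M N S A' ∧ M.closure A' = M.closure A ∧
      ∀ i ∈ S, (N i).E ⊆ M.closure A → AS (N i) A' := by
  set Ψ : Finset ι := S.filter (fun i => (N i).E ⊆ M.closure A) with hΨ
  have hΨS : Ψ ⊆ S := Finset.filter_subset _ _
  have hXΨ : XS N Ψ ⊆ M.closure A := by
    unfold XS
    apply iUnion₂_subset
    intro i hi
    exact (Finset.mem_filter.mp hi).2
  by_cases hemp : S = ∅
  · subst hemp
    exact ⟨A, hA, rfl, by simp⟩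
  have hne : Ψ ≠ S := by
    intro h
    exact hyp S subset_rfl (Finset.nonempty_iff_ne_empty.mpr hemp) A hA (h ▸ hXΨ)
  have hss : Ψ ⊂ S := hΨS.ssubset_of_ne hne
  have hK : St M N Ψ (A ∩ XS N Ψ) :=
    ⟨inter_subset_right, hA.indep.subset inter_subset_left,
      fun i hi => (hA.ai i (hΨS hi)).mono inter_subset_left⟩
  obtain ⟨JΨ, hJ, hKJ, hAS⟩ := ih Ψ hss (hyp.mono hΨS) _ hK
  have hground : JΨ ∪ (A \ XS N Ψ) ⊆ M.E :=
    union_subset hJ.indep.subset_ground (sdiff_subset.trans hA.indep.subset_ground)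
  obtain ⟨A', hA', hJA'⟩ := hJ.indep.subset_isBasis_of_subset subset_union_left hground
  have hcl : M.closure A' = M.closure A := by
    rw [hA'.closure_eq_closure]
    apply subset_antisymm
    · apply M.closure_subset_closure_of_subset_closure
      rintro z (hz | hz)
      · exact hXΨ (hJ.sub hz)
      · exact M.mem_closure_of_mem' hz.1 (hA.indep.subset_ground hz.1)
    · apply M.closure_subset_closure_of_subset_closure
      intro z hz
      by_cases hzX : z ∈ XS N Ψ
      · exact M.closure_subset_closure subset_union_left (hKJ ⟨hz, hzX⟩)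
      · exact M.mem_closure_of_mem' (Or.inr ⟨hz, hzX⟩) (hA.indep.subset_ground hz)
  refine ⟨A', ⟨?_, hA'.indep, ?_⟩, hcl, ?_⟩
  · refine hA'.subset.trans (union_subset (hJ.sub.trans (XS_mono hΨS)) (sdiff_subset.trans hA.sub))
  · intro i hi
    by_cases hiΨ : i ∈ Ψ
    · apply (hJ.ai i hiΨ).mono'
      rintro z ⟨hz, hzE⟩
      rcases hA'.subset hz with h | h
      · exact ⟨h, hzE⟩
      · exact absurd (subset_XS hiΨ hzE) h.2
    · apply (hA.ai i hi).mono'
      rintro z ⟨hz, hzE⟩
      rcases hA'.subset hz with h | h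
      · exact absurd hzE ((disjoint_XS hdj hiΨ).notMem_of_mem_left (hJ.sub h))
      · exact ⟨h.1, hzE⟩
  · intro i hi hiA
    exact (hAS i (Finset.mem_filter.mpr ⟨hi, hiA⟩)).mono hJA'

end

end Vale.Agent.P068

namespace Vale.Agent.P068

open Set
open scoped Matroid Function

variable {α ι : Type*} {M : Matroid α} {N : ι → Matroid α} {S : Finset ι}

open Classical in
/-- number of components of `S` not yet spanned by `A` -/
noncomputable def bad (M : Matroid α) (N : ι → Matroid α) (S : Finset ι) (A : Set α) : ℕ :=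
  (S.filter (fun i => ¬ (N i).E ⊆ M.closure A)).card

open Classical in
lemma bad_lt {A B : Set α} (hAB : M.closure A ⊆ M.closure B) {l : ι} (hl : l ∈ S)
    (hlA : ¬ (N l).E ⊆ M.closure A) (hlB : (N l).E ⊆ M.closure B) :
    bad M N S B < bad M N S A := by
  unfold bad
  apply Finset.card_lt_card
  rw [Finset.ssubset_iff_of_subset]
  · exact ⟨l, Finset.mem_filter.mpr ⟨hl, hlA⟩, fun h => (Finset.mem_filter.mp h).2 hlB⟩
  · intro i hi
    rw [Finset.mem_filter] at hi ⊢
    exact ⟨hi.1, fun h => hi.2 (h.trans hAB)⟩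

lemma inner_loop (hdj : Pairwise (Disjoint on fun i => (N i).E))
    (hsub : ∀ i ∈ S, (N i).E ⊆ M.E) (hNU : ∀ i ∈ S, NearlyUniform (N i))
    {K A A' : Set α} (hKA : K ⊆ M.closure A) (hcl : M.closure A' = M.closure A)
    (hAS : ∀ i ∈ S, (N i).E ⊆ M.closure A → AS (N i) A')
    (outer : ∀ B, St M N S B → K ⊆ M.closure B → bad M N S B < bad M N S A →
      ∃ J, St M N S J ∧ K ⊆ M.closure J ∧ ∀ i ∈ S, AS (N i) J) :
    ∀ R : Finset ι, ∀ A'', St M N S A'' → A' ⊆ A'' → (∀ i ∈ S, i ∉ R → AS (N i) A'') →
      ∃ J, St M N S J ∧ K ⊆ M.closure J ∧ ∀ i ∈ S, AS (N i) J := by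
  classical
  intro R
  induction R using Finset.induction_on with
  | empty =>
    intro A'' hA'' hsubA h
    refine ⟨A'', hA'', ?_, fun i hi => h i hi (by simp)⟩
    exact hKA.trans (hcl ▸ M.closure_subset_closure hsubA)
  | insert l R' hlR ih =>
    intro A'' hA'' hsubA h
    by_cases hl : l ∈ S ∧ ¬ AS (N l) A''
    · obtain ⟨hlS, hlAS⟩ := hl
      have hground : A'' ∪ (N l).E ⊆ M.E := union_subset hA''.indep.subset_ground (hsub l hlS)
      obtain ⟨B, hB, hAB⟩ := hA''.indep.subset_isBasis_of_subset subset_union_left hground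
      have hBi : ∀ i, i ≠ l → B ∩ (N i).E ⊆ A'' ∩ (N i).E := by
        rintro i hil z ⟨hz, hzE⟩
        rcases hB.subset hz with h' | h'
        · exact ⟨h', hzE⟩
        · exact absurd hzE ((hdj hil).symm.notMem_of_mem_left h')
      have hBX : B ⊆ XS N S := hB.subset.trans (union_subset hA''.sub (subset_XS hlS))
      rcases hNU l hlS (B ∩ (N l).E) inter_subset_right with ⟨F, hF, hI⟩ | ⟨F, hF, hFE, hSp⟩
      · have hStB : St M N S B := by
          refine ⟨hBX, hB.indep, fun i hi => ?_⟩
          by_cases hil : i = l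
          · subst hil
            exact ⟨F, hF, hI⟩
          · exact (hA''.ai i hi).mono' (hBi i hil)
        have hclAB : M.closure A ⊆ M.closure B :=
          hcl ▸ M.closure_subset_closure (hsubA.trans hAB)
        apply outer B hStB (hKA.trans hclAB)
        apply bad_lt hclAB hlS
        · intro hlA
          exact hlAS ((hAS l hlS hlA).mono hsubA)
        · exact subset_union_right.trans hB.subset_closure
      · have hASB : AS (N l) B := ⟨F, hF, hFE, hSp⟩
        obtain ⟨R₀, hR1, hR2, hR3, hR4⟩ := exists_between hAB (hA''.ai l hlS) hASB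
        have hsubB : A'' ∪ R₀ ⊆ B := union_subset hAB (hR2.trans inter_subset_left)
        apply ih (A'' ∪ R₀)
        · refine ⟨hsubB.trans hBX, hB.indep.subset hsubB, fun i hi => ?_⟩
          by_cases hil : i = l
          · subst hil
            apply hR3.mono'
            rintro z ⟨hz | hz, hzE⟩
            · exact ⟨hR1 ⟨hz, hzE⟩, hzE⟩
            · exact ⟨hz, hzE⟩
          · exact (hA''.ai i hi).mono' ((inter_subset_inter_left _ hsubB).trans (hBi i hil))
        · exact hsubA.trans subset_union_left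
        · intro i hi hiR
          by_cases hil : i = l
          · subst hil
            exact hR4.mono subset_union_right
          · exact (h i hi (by simp [hil, hiR])).mono subset_union_left
    · apply ih A'' hA'' hsubA
      intro i hi hiR
      by_cases hil : i = l
      · subst hil
        by_contra hcon
        exact hl ⟨hi, hcon⟩
      · exact h i hi (by simp [hil, hiR])

theorem extP_of_hyp (hdj : Pairwise (Disjoint on fun i => (N i).E)) :
    ∀ S : Finset ι, (∀ i ∈ S, (N i).E ⊆ M.E) → (∀ i ∈ S, NearlyUniform (N i)) →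
      Hyp M N S → ExtP M N S := by
  intro S
  induction S using Finset.strongInduction with
  | H S ih =>
    intro hsub hNU hyp K hK
    have ih' : ∀ T ⊂ S, Hyp M N T → ExtP M N T := fun T hT =>
      ih T hT (fun i hi => hsub i (hT.subset hi)) (fun i hi => hNU i (hT.subset hi))
    have main : ∀ n, ∀ A, St M N S A → K ⊆ M.closure A → bad M N S A = n →
        ∃ J, St M N S J ∧ K ⊆ M.closure J ∧ ∀ i ∈ S, AS (N i) J := by
      intro n
      induction n using Nat.strong_induction_on with
      | _ n ihn =>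
        intro A hA hKA hn
        obtain ⟨A', hA', hcl, hAS⟩ := claim_one hdj hyp ih' hA
        apply inner_loop hdj hsub hNU hKA hcl hAS _ S A' hA' subset_rfl
        · intro i hi hi'
          exact absurd hi hi'
        · intro B hB hKB hlt
          exact ihn _ (hn ▸ hlt) B hB hKB rfl
    exact main _ K hK (M.subset_closure K hK.indep.subset_ground) rfl

end Vale.Agent.P068

namespace Vale.Agent.P068

open Set
open scoped Matroid Function

variable {α ι : Type*} {N : ι → Matroid α}

theorem exists_almost_solution [DecidableEq ι] (hdj : Pairwise (Disjoint on fun i => (N i).E)) :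
    ∀ S : Finset ι, (∀ i ∈ S, NearlyUniform (N i)) → ∀ M : Matroid α, (∀ i ∈ S, (N i).E ⊆ M.E) →
      ∃ T ⊆ S, ∃ I, St M N S I ∧ (∀ i ∈ T, AS (N i) I) ∧
        XS N (S \ T) ⊆ M.closure (I ∩ XS N (S \ T)) := by
  intro S
  induction S using Finset.strongInduction with
  | H S ih =>
    intro hNU M hsub
    by_cases hyp : Hyp M N S
    · have hempty : St M N S ∅ :=
        ⟨empty_subset _, M.empty_indep, fun i _ => ⟨∅, finite_empty, by simp⟩⟩
      obtain ⟨J, hJ, -, hAS⟩ := extP_of_hyp hdj S hsub hNU hyp ∅ hempty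
      refine ⟨S, subset_rfl, J, hJ, hAS, ?_⟩
      simp [XS]
    · unfold Hyp at hyp
      push Not at hyp
      obtain ⟨S', hS'S, hS'ne, I₀, hI₀, hI₀cl⟩ := hyp
      have hss : S \ S' ⊂ S := by
        refine (Finset.sdiff_subset).ssubset_of_ne fun h => ?_
        obtain ⟨i, hi⟩ := hS'ne
        have : i ∈ S \ S' := by rw [h]; exact hS'S hi
        exact (Finset.mem_sdiff.mp this).2 hi
      have hsub' : ∀ i ∈ S \ S', (N i).E ⊆ (M ／ I₀).E := by
        intro i hi z hz
        rw [Finset.mem_sdiff] at hi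
        exact ⟨hsub i hi.1 hz, fun hzI =>
          (disjoint_XS hdj hi.2).notMem_of_mem_left (hI₀.sub hzI) hz⟩
      obtain ⟨T, hT, I₁, hI₁, hAS, hcl⟩ :=
        ih (S \ S') hss (fun i hi => hNU i (Finset.sdiff_subset hi)) (M ／ I₀) hsub'
      have hind := (hI₀.indep.contract_indep_iff.mp hI₁.indep).2
      refine ⟨T, hT.trans Finset.sdiff_subset, I₁ ∪ I₀, ⟨?_, hind, ?_⟩, ?_, ?_⟩
      · exact union_subset (hI₁.sub.trans (XS_mono Finset.sdiff_subset))
          (hI₀.sub.trans (XS_mono hS'S))
      · intro i hi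
        by_cases hiS' : i ∈ S'
        · apply (hI₀.ai i hiS').mono'
          rintro z ⟨hz | hz, hzE⟩
          · have hi' : i ∉ S \ S' := fun h => (Finset.mem_sdiff.mp h).2 hiS'
            exact absurd hzE ((disjoint_XS hdj hi').notMem_of_mem_left (hI₁.sub hz))
          · exact ⟨hz, hzE⟩
        · apply (hI₁.ai i (Finset.mem_sdiff.mpr ⟨hi, hiS'⟩)).mono'
          rintro z ⟨hz | hz, hzE⟩
          · exact ⟨hz, hzE⟩
          · exact absurd hzE ((disjoint_XS hdj hiS').notMem_of_mem_left (hI₀.sub hz))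
      · intro i hi
        exact (hAS i hi).mono subset_union_left
      · have hS'T : S' ⊆ S \ T := by
          intro i hi
          rw [Finset.mem_sdiff]
          exact ⟨hS'S hi, fun hiT => (Finset.mem_sdiff.mp (hT hiT)).2 hi⟩
        have hI₀sub : I₀ ⊆ (I₁ ∪ I₀) ∩ XS N (S \ T) :=
          subset_inter subset_union_right (hI₀.sub.trans (XS_mono hS'T))
        unfold XS
        apply iUnion₂_subset
        intro i hi
        rw [Finset.mem_sdiff] at hi
        by_cases hiS' : i ∈ S'
        · exact ((subset_XS hiS').trans hI₀cl).trans (M.closure_subset_closure hI₀sub)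
        · have hi2 : i ∈ (S \ S') \ T := by
            simp only [Finset.mem_sdiff]
            exact ⟨⟨hi.1, hiS'⟩, hi.2⟩
          intro z hz
          have hz1 := hcl (subset_XS hi2 hz)
          rw [Matroid.contract_closure_eq] at hz1
          refine M.closure_subset_closure ?_ hz1.1
          apply union_subset _ hI₀sub
          refine inter_subset_inter subset_union_left (XS_mono ?_)
          intro j hj
          simp only [Finset.mem_sdiff] at hj ⊢
          exact ⟨hj.1.1, hj.2⟩

end Vale.Agent.P068
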