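import Vale.Agent.P068.Repair
import Vale.Agent.P068.Ext

namespace Vale.Agent.P068

open Set
open scoped Matroid Function

variable {α ι : Type*} {N : ι → Matroid α}

lemma disjointSigma_restrict (hdj : Pairwise (Disjoint on fun i => (N i).E)) (i : ι) :
    (Matroid.disjointSigma N hdj) ↾ (N i).E = N i := by
  apply Matroid.ext_indep
  · simp
  · intro I hI
    rw [Matroid.restrict_ground_eq] at hI
    rw [Matroid.restrict_indep_iff, Matroid.disjointSigma_indep_iff]
    constructor
    · rintro ⟨⟨h, -⟩, -⟩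
      have := h i
      rwa [inter_eq_self_of_subset_left hI] at this
    · intro h
      refine ⟨⟨fun j => ?_, hI.trans (subset_iUnion (fun i => (N i).E) i)⟩, hI⟩
      by_cases hij : j = i
      · subst hij
        exact h.subset inter_subset_left
      · have : I ∩ (N j).E = ∅ := by
          rw [← disjoint_iff_inter_eq_empty]
          exact (hdj hij).symm.mono_left hI
        rw [this]
        exact (N j).empty_indep

lemma closure_subset_disjointSigma_closure (hdj : Pairwise (Disjoint on fun i => (N i).E)) (i : ι)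
    (Z : Set α) : (N i).closure Z ⊆ (Matroid.disjointSigma N hdj).closure Z := by
  have h := disjointSigma_restrict hdj i
  have hsub : (N i).E ⊆ (Matroid.disjointSigma N hdj).E := by
    rw [Matroid.disjointSigma_ground_eq]
    exact subset_iUnion (fun i => (N i).E) i
  intro z hz
  rw [← h, Matroid.restrict_closure_eq', sdiff_eq_empty.mpr hsub, union_empty] at hz
  exact (Matroid.disjointSigma N hdj).closure_subset_closure inter_subset_left hz.1

theorem intersection_of_nearlyUniform_sum [Finite ι] (M : Matroid α) (N : ι → Matroid α)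
    (hdj : Pairwise (Disjoint on fun i => (N i).E)) (hE : M.E = ⋃ i, (N i).E)
    (hN : ∀ i, NearlyUniform (N i)) :
    SatisfiesIntersection M (Matroid.disjointSigma N hdj) := by
  classical
  obtain ⟨_⟩ := nonempty_fintype ι
  have hsub : ∀ i, (N i).E ⊆ M.E := fun i => hE ▸ subset_iUnion (fun i => (N i).E) i
  obtain ⟨T, -, I, hI, hAS, hcl⟩ := exists_almost_solution hdj Finset.univ (fun i _ => hN i) M
    (fun i _ => hsub i)
  have hAI : ∀ i, AI (N i) I := fun i => hI.ai i (Finset.mem_univ i)
  choose F hFfin hFind using hAI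
  have hAS' : ∀ i, ∃ F' : Set α, F'.Finite ∧ (i ∈ T → (N i).Spanning ((I ∩ (N i).E) ∪ F')) := by
    intro i
    by_cases hi : i ∈ T
    · obtain ⟨F', h1, -, h3⟩ := hAS i hi
      exact ⟨F', h1, fun _ => h3⟩
    · exact ⟨∅, finite_empty, fun h => absurd h hi⟩
  choose F' hF'fin hF'sp using hAS'
  set G₁ : Set α := ⋃ i, F i with hG₁
  set G : Set α := G₁ ∪ ⋃ i, F' i with hG
  have hGfin : G.Finite := (finite_iUnion hFfin).union (finite_iUnion hF'fin)
  set A : Set α := XS N (Finset.univ \ T) with hA
  have hAE : A ⊆ M.E := by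
    unfold A XS
    exact iUnion₂_subset fun i _ => hsub i
  have hJM : M.Indep (I \ G₁) := hI.indep.subset sdiff_subset
  have hJN : (Matroid.disjointSigma N hdj).Indep (I \ G₁) := by
    rw [Matroid.disjointSigma_indep_iff]
    refine ⟨fun i => (hFind i).subset ?_, ?_⟩
    · rintro z ⟨⟨hzI, hzG⟩, hzE⟩
      exact ⟨⟨hzI, hzE⟩, fun hzF => hzG (mem_iUnion.mpr ⟨i, hzF⟩)⟩
    · exact sdiff_subset.trans (hE ▸ hI.indep.subset_ground)
  have hEE : M.E = (Matroid.disjointSigma N hdj).E := by
    rw [Matroid.disjointSigma_ground_eq, hE]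
  apply satisfiesIntersection_of_almost hEE hJM hJN hAE hGfin
  · refine hcl.trans (M.closure_subset_closure ?_)
    rintro z ⟨hzI, hzA⟩
    by_cases hzG : z ∈ G₁
    · exact Or.inr (Or.inl hzG)
    · exact Or.inl ⟨⟨hzI, hzG⟩, hzA⟩
  · rintro z ⟨hzE, hzA⟩
    rw [Matroid.disjointSigma_ground_eq, mem_iUnion] at hzE
    obtain ⟨i, hzi⟩ := hzE
    have hiT : i ∈ T := by
      by_contra hiT
      exact hzA (subset_XS (Finset.mem_sdiff.mpr ⟨Finset.mem_univ i, hiT⟩) hzi)
    have hsp := hF'sp i hiT
    have hz1 : z ∈ (N i).closure ((I ∩ (N i).E) ∪ F' i) := by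
      rw [hsp.closure_eq]; exact hzi
    refine (Matroid.disjointSigma N hdj).closure_subset_closure ?_
      (closure_subset_disjointSigma_closure hdj i _ hz1)
    rintro w (⟨hwI, hwE⟩ | hw)
    · by_cases hwG : w ∈ G₁
      · exact Or.inr (Or.inl hwG)
      · refine Or.inl ⟨⟨hwI, hwG⟩, fun hwA => ?_⟩
        have hi' : i ∉ Finset.univ \ T := fun h => (Finset.mem_sdiff.mp h).2 hiT
        exact (disjoint_XS hdj hi').notMem_of_mem_left hwA hwE
    · exact Or.inr (Or.inr (mem_iUnion.mpr ⟨i, hw⟩))

end Vale.Agent.P068
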