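import Vale.Agent.P068.DefsPC

namespace Vale.Agent.P068

open Set
open scoped Matroid Function

variable {α : Type*}

/-- `M . C = M ／ P` when `E = P ⊔ C`. -/
lemma dual_restrict_dual_eq_contract (M : Matroid α) {P C : Set α} (hdj : Disjoint P C)
    (hPC : P ∪ C = M.E) : (M✶ ↾ C)✶ = M ／ P := by
  have hC : M✶.E \ P = C := by
    rw [Matroid.dual_ground, ← hPC]
    ext x
    constructor
    · rintro ⟨h1 | h1, h2⟩
      · exact absurd h1 h2
      · exact h1
    · intro hx
      exact ⟨Or.inr hx, fun hP => hdj.notMem_of_mem_left hP hx⟩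
  rw [← Matroid.dual_delete_dual, Matroid.delete_eq_restrict, hC]

lemma restrict_closure_eq_iff (M : Matroid α) {S P : Set α} (hSP : S ⊆ P) (hP : P ⊆ M.E) :
    (M ↾ P).closure S = P ↔ P ⊆ M.closure S := by
  rw [M.restrict_closure_eq hSP hP, inter_eq_right]

/-- A convenient sufficient form of a packing/covering partition. -/
lemma hasPackingCovering_of_bases {Θ : Type*} (M : Θ → Matroid α) (E : Set α)
    (hE : ∀ i, (M i).E = E) {P C : Set α} (hdj : Disjoint P C) (hPC : P ∪ C = E)
    (S I : Θ → Set α) (hSb : ∀ i, (M i).IsBasis (S i) P) (hSd : Pairwise (Disjoint on S))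
    (hIC : ∀ i, I i ⊆ C) (hI : ∀ i, (M i).Indep (I i ∪ S i)) (hcov : C ⊆ ⋃ i, I i) :
    HasPackingCovering M E := by
  refine ⟨P, C, hdj, hPC, S, I, fun i => (hSb i).subset, hIC, hSd, fun i => ?_, fun i => ?_, ?_⟩
  · rw [restrict_closure_eq_iff _ (hSb i).subset (hSb i).subset_ground]
    exact (hSb i).subset_closure
  · rw [dual_restrict_dual_eq_contract (M i) hdj (hPC.trans (hE i).symm),
      (hSb i).contract_indep_iff]
    exact ⟨hI i, hdj.mono_right (hIC i)⟩
  · exact subset_antisymm (iUnion_subset hIC) hcov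

/-- Conversely every packing/covering partition can be brought to that form. -/
lemma HasPackingCovering.exists_bases {Θ : Type*} {M : Θ → Matroid α} {E : Set α}
    (hE : ∀ i, (M i).E = E) (h : HasPackingCovering M E) :
    ∃ P C : Set α, Disjoint P C ∧ P ∪ C = E ∧ ∃ S I : Θ → Set α,
      (∀ i, (M i).IsBasis (S i) P) ∧ Pairwise (Disjoint on S) ∧ (∀ i, I i ⊆ C) ∧
      (∀ i, (M i).Indep (I i ∪ S i)) ∧ C ⊆ ⋃ i, I i := by
  obtain ⟨P, C, hdj, hPC, S, I, hSP, hIC, hSd, hcl, hI, hcov⟩ := h
  have hPE : ∀ i, P ⊆ (M i).E := fun i => (hE i).symm ▸ hPC ▸ subset_union_left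
  have hex : ∀ i, ∃ B, (M i).IsBasis B (S i) := fun i =>
    (M i).exists_isBasis (S i) ((hSP i).trans (hPE i))
  choose B hB using hex
  have hBP : ∀ i, (M i).IsBasis (B i) P := by
    intro i
    refine (hB i).indep.isBasis_of_subset_of_subset_closure ((hB i).subset.trans (hSP i)) ?_
    rw [(hB i).closure_eq_closure]
    exact (restrict_closure_eq_iff _ (hSP i) (hPE i)).mp (hcl i)
  refine ⟨P, C, hdj, hPC, B, I, hBP, ?_, hIC, fun i => ?_, hcov.symm.subset⟩
  · intro i j hij
    exact (hSd hij).mono (hB i).subset (hB j).subset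
  · have := hI i
    rw [dual_restrict_dual_eq_contract (M i) hdj (hPC.trans (hE i).symm),
      (hBP i).contract_indep_iff] at this
    exact this.1

end Vale.Agent.P068
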