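import Vale.Agent.P068.PCBasic

namespace Vale.Agent.P068

open Set
open scoped Matroid Function

variable {α Θ : Type*}

/-- The admissible partial packings of the uniform members inside the remainder `R`. -/
def Adm (M : Θ → Matroid α) (A : Set Θ) (P R : Set α) : Set (Set (Θ × α)) :=
  {T | (∀ i e, (i, e) ∈ T → i ∉ A ∧ e ∈ R) ∧ (∀ i j e, (i, e) ∈ T → (j, e) ∈ T → i = j) ∧
    ∀ i, (Prod.mk i ⁻¹' T = ∅ ∨ (M i).IsBasis (Prod.mk i ⁻¹' T) P)}

lemma exists_maximal_adm (M : Θ → Matroid α) (A : Set Θ) (P R : Set α) :
    ∃ T, Maximal (· ∈ Adm M A P R) T := by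
  apply zorn_subset
  intro c hc hchain
  refine ⟨⋃₀ c, ⟨?_, ?_, ?_⟩, fun s hs => subset_sUnion_of_mem hs⟩
  · rintro i e ⟨T, hT, hie⟩
    exact (hc hT).1 i e hie
  · rintro i j e ⟨T, hT, hie⟩ ⟨T', hT', hje⟩
    rcases hchain.total hT hT' with h | h
    · exact (hc hT').2.1 i j e (h hie) hje
    · exact (hc hT).2.1 i j e hie (h hje)
  · intro i
    by_cases hemp : ∀ T ∈ c, Prod.mk i ⁻¹' T = ∅
    · left
      ext e
      simp only [mem_preimage, mem_sUnion, mem_empty_iff_false, iff_false, not_exists, not_and]
      intro T hT hie
      have := hemp T hT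
      exact (this ▸ (show e ∈ Prod.mk i ⁻¹' T from hie) : e ∈ (∅ : Set α))
    · right
      push Not at hemp
      obtain ⟨T, hT, hne⟩ := hemp
      have hb : (M i).IsBasis (Prod.mk i ⁻¹' T) P := by
        rcases (hc hT).2.2 i with h | h
        · exact absurd h hne.ne_empty
        · exact h
      have : Prod.mk i ⁻¹' (⋃₀ c) = Prod.mk i ⁻¹' T := by
        apply subset_antisymm
        · rintro e ⟨T', hT', hie⟩
          rcases hchain.total hT hT' with h | h
          · have hb' : (M i).IsBasis (Prod.mk i ⁻¹' T') P := by
              rcases (hc hT').2.2 i with h' | h'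
              · exact absurd (h' ▸ (show e ∈ Prod.mk i ⁻¹' T' from hie) : e ∈ (∅ : Set α))
                  (notMem_empty e)
              · exact h'
            have heq : Prod.mk i ⁻¹' T = Prod.mk i ⁻¹' T' :=
              hb.eq_of_subset_indep hb'.indep (preimage_mono h) hb'.subset
            rw [heq]
            exact hie
          · exact h hie
        · exact preimage_mono (subset_sUnion_of_mem hT)
      rw [this]
      exact hb

/-- Adding uniform matroids: data for the members in `A` extend to the whole family when all
the other members are uniform. -/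
theorem hasPackingCovering_of_uniform_rest (M : Θ → Matroid α) (E : Set α)
    (hE : ∀ i, (M i).E = E) (A : Set Θ) (hU : ∀ i, i ∉ A → IsUniform (M i))
    {P C : Set α} (hdj : Disjoint P C) (hPC : P ∪ C = E) (S I : Θ → Set α)
    (hSb : ∀ i ∈ A, (M i).IsBasis (S i) P) (hSd : A.PairwiseDisjoint S)
    (hIC : ∀ i ∈ A, I i ⊆ C) (hI : ∀ i ∈ A, (M i).Indep (I i ∪ S i))
    (hcov : C ⊆ ⋃ i ∈ A, I i) : HasPackingCovering M E := by
  classical
  set R : Set α := P \ ⋃ i ∈ A, S i with hR
  obtain ⟨T, hT⟩ := exists_maximal_adm M A P R
  obtain ⟨hT1, hT2, hT3⟩ := hT.prop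
  set Z : Θ → Set α := fun i => Prod.mk i ⁻¹' T with hZ
  have hPE : P ⊆ E := hPC ▸ subset_union_left
  by_cases hall : ∀ i, i ∉ A → (M i).IsBasis (Z i) P
  · -- packing side survives
    refine hasPackingCovering_of_bases M E hE hdj hPC (fun i => if i ∈ A then S i else Z i)
      (fun i => if i ∈ A then I i else ∅) ?_ ?_ ?_ ?_ ?_
    · intro i
      by_cases hi : i ∈ A
      · simpa [hi] using hSb i hi
      · simpa [hi] using hall i hi
    · intro i j hij
      simp only [Function.onFun]
      by_cases hi : i ∈ A <;> by_cases hj : j ∈ A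
      · simpa [hi, hj] using hSd hi hj hij
      · simp only [hi, hj, if_true, if_false]
        rw [Set.disjoint_left]
        intro e heS heZ
        exact (hT1 j e heZ).2.2 (mem_iUnion₂.mpr ⟨i, hi, heS⟩)
      · simp only [hi, hj, if_true, if_false]
        rw [Set.disjoint_left]
        intro e heZ heS
        exact (hT1 i e heZ).2.2 (mem_iUnion₂.mpr ⟨j, hj, heS⟩)
      · simp only [hi, hj, if_false]
        rw [Set.disjoint_left]
        intro e heZ heZ'
        exact hij (hT2 i j e heZ heZ')
    · intro i
      by_cases hi : i ∈ A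
      · simpa [hi] using hIC i hi
      · simp [hi]
    · intro i
      by_cases hi : i ∈ A
      · simpa [hi] using hI i hi
      · simpa [hi] using (hall i hi).indep
    · intro e he
      obtain ⟨i, hi, hei⟩ := mem_iUnion₂.mp (hcov he)
      exact mem_iUnion.mpr ⟨i, by simpa [hi] using hei⟩
  · -- everything can be covered
    push Not at hall
    obtain ⟨i₁, hi₁, hnb⟩ := hall
    have hZ₁ : Z i₁ = ∅ := by
      rcases hT3 i₁ with h | h
      · exact h
      · exact absurd h hnb
    set R' : Set α := R \ (Prod.snd '' T) with hR'
    have hR'P : R' ⊆ P := sdiff_subset.trans sdiff_subset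
    have hR'ind : (M i₁).Indep R' := by
      rcases hU i₁ hi₁ R' (hR'P.trans (hPE.trans (hE i₁).symm.subset)) with h | h
      · exact h
      · exfalso
        obtain ⟨B, hB, hBR⟩ := h.exists_isBase_subset
        have hBP : (M i₁).IsBasis B P := by
          refine hB.indep.isBasis_of_subset_of_subset_closure (hBR.trans hR'P) ?_
          rw [hB.closure_eq, hE i₁]
          exact hPE
        have hmem : T ∪ (Prod.mk i₁ '' B) ∈ Adm M A P R := by
          refine ⟨?_, ?_, ?_⟩
          · rintro i e (h | ⟨b, hb, hbe⟩)
            · exact hT1 i e h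
            · obtain ⟨rfl, rfl⟩ := Prod.mk.inj hbe
              exact ⟨hi₁, (hBR hb).1⟩
          · rintro i j e (h | ⟨b, hb, hbe⟩) (h' | ⟨b', hb', hbe'⟩)
            · exact hT2 i j e h h'
            · obtain ⟨rfl, rfl⟩ := Prod.mk.inj hbe'
              exact absurd ⟨(i, b'), h, rfl⟩ (hBR hb').2
            · obtain ⟨rfl, rfl⟩ := Prod.mk.inj hbe
              exact absurd ⟨(j, b), h', rfl⟩ (hBR hb).2
            · obtain ⟨rfl, rfl⟩ := Prod.mk.inj hbe
              obtain ⟨rfl, -⟩ := Prod.mk.inj hbe'
              rfl
          · intro i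
            by_cases hii : i = i₁
            · subst hii
              right
              have : Prod.mk i ⁻¹' (T ∪ Prod.mk i '' B) = B := by
                ext e
                constructor
                · rintro (h | ⟨b, hb, hbe⟩)
                  · exact absurd (hZ₁ ▸ (show e ∈ Z i from h) : e ∈ (∅ : Set α)) (notMem_empty e)
                  · obtain ⟨-, rfl⟩ := Prod.mk.inj hbe
                    exact hb
                · intro he
                  exact Or.inr ⟨e, he, rfl⟩
              rw [this]
              exact hBP
            · have : Prod.mk i ⁻¹' (T ∪ Prod.mk i₁ '' B) = Prod.mk i ⁻¹' T := by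
                ext e
                constructor
                · rintro (h | ⟨b, hb, hbe⟩)
                  · exact h
                  · exact absurd (Prod.mk.inj hbe).1.symm hii
                · intro he
                  exact Or.inl he
              rw [this]
              exact hT3 i
        have hsub : T ∪ (Prod.mk i₁ '' B) ⊆ T := hT.le_of_ge hmem subset_union_left
        have hBemp : B = ∅ := by
          rw [eq_empty_iff_forall_notMem]
          intro b hb
          have : b ∈ Z i₁ := hsub (Or.inr ⟨b, hb, rfl⟩)
          rw [hZ₁] at this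
          exact this
        rw [hBemp, ← hZ₁] at hBP
        exact hnb hBP
    refine hasPackingCovering_of_bases M E hE (P := ∅) (C := E) (empty_disjoint _)
      (empty_union _) (fun _ => ∅)
      (fun i => if i ∈ A then I i ∪ S i else if i = i₁ then R' else Z i) ?_ ?_ ?_ ?_ ?_
    · intro i
      exact (M i).empty_indep.isBasis_self
    · intro i j _
      simp [Function.onFun]
    · intro i
      by_cases hi : i ∈ A
      · simp only [hi, if_true]
        exact (hE i) ▸ (hI i hi).subset_ground
      · by_cases hii : i = i₁
        · simpa [hi, hii, hi₁] using hR'P.trans hPE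
        · simp only [hi, hii, if_false]
          intro e he
          exact hPE (hT1 i e he).2.1
    · intro i
      rw [union_empty]
      by_cases hi : i ∈ A
      · simpa [hi] using hI i hi
      · by_cases hii : i = i₁
        · subst hii
          simpa [hi] using hR'ind
        · simp only [hi, hii, if_false]
          rcases hT3 i with h | h
          · rw [hZ]
            simp only
            rw [h]
            exact (M i).empty_indep
          · exact h.indep
    · intro e he
      rw [← hPC] at he
      rcases he with heP | heC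
      · by_cases h1 : e ∈ ⋃ i ∈ A, S i
        · obtain ⟨i, hi, hei⟩ := mem_iUnion₂.mp h1
          exact mem_iUnion.mpr ⟨i, by simpa [hi] using Or.inr hei⟩
        · by_cases h2 : e ∈ Prod.snd '' T
          · obtain ⟨⟨i, e'⟩, hie, rfl⟩ := h2
            have hiA : i ∉ A := (hT1 i e' hie).1
            have hii : i ≠ i₁ := by
              rintro rfl
              exact absurd (hZ₁ ▸ (show e' ∈ Z i from hie) : e' ∈ (∅ : Set α)) (notMem_empty e')
            refine mem_iUnion.mpr ⟨i, ?_⟩
            simp only [hiA, hii, if_false]
            exact hie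
          · exact mem_iUnion.mpr ⟨i₁, by simpa [hi₁] using ⟨⟨heP, h1⟩, h2⟩⟩
      · obtain ⟨i, hi, hei⟩ := mem_iUnion₂.mp (hcov heC)
        exact mem_iUnion.mpr ⟨i, by simpa [hi] using Or.inl hei⟩

end Vale.Agent.P068
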