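import Vale.Agent.P068.PCSum
import Vale.Agent.P068.PCUniform

namespace Vale.Agent.P068

open Set
open scoped Matroid Function

variable {α Θ : Type*}

/-- Adding arbitrarily many uniform matroids to a family preserves the existence of a
packing/covering partition. -/
theorem hasPackingCovering_of_subfamily (M : Θ → Matroid α) (E : Set α)
    (hE : ∀ i, (M i).E = E) (A : Set Θ) (hU : ∀ i, i ∉ A → IsUniform (M i))
    (h : HasPackingCovering (fun i : A => M i.1) E) : HasPackingCovering M E := by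
  classical
  obtain ⟨P, C, hdj, hPC, S, I, hSb, hSd, hIC, hI, hcov⟩ :=
    h.exists_bases (fun i : A => hE i.1)
  refine hasPackingCovering_of_uniform_rest M E hE A hU hdj hPC
    (fun i => if h : i ∈ A then S ⟨i, h⟩ else ∅) (fun i => if h : i ∈ A then I ⟨i, h⟩ else ∅)
    ?_ ?_ ?_ ?_ ?_
  · intro i hi
    simpa [hi] using hSb ⟨i, hi⟩
  · intro i hi j hj hij
    simp only [Function.onFun, hi, hj, dif_pos]
    exact hSd (fun h => hij (congrArg Subtype.val h))
  · intro i hi
    simpa [hi] using hIC ⟨i, hi⟩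
  · intro i hi
    simpa [hi] using hI ⟨i, hi⟩
  · intro e he
    obtain ⟨⟨i, hi⟩, hei⟩ := mem_iUnion.mp (hcov he)
    exact mem_iUnion₂.mpr ⟨i, hi, by simpa [hi] using hei⟩

/-- One arbitrary matroid, finitely many finite direct sums of nearly uniform matroids and
arbitrarily many uniform matroids always have a packing/covering partition. -/
theorem packingCovering_main (M : Θ → Matroid α) (E : Set α) (hE : ∀ i, (M i).E = E)
    (θ₀ : Θ) (T : Set Θ) (hT : T.Finite)
    (h : ∀ i, i = θ₀ ∨ (i ∈ T ∧ IsFiniteSumNU (M i)) ∨ IsUniform (M i)) :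
    HasPackingCovering M E := by
  classical
  set T' : Set Θ := {i | i ∈ T ∧ i ≠ θ₀ ∧ IsFiniteSumNU (M i)} with hT'
  have hT'fin : T'.Finite := hT.subset fun i hi => hi.1
  have : Finite T' := hT'fin
  set K : T' → Matroid α := fun i => M i.1 with hK
  have hKE : ∀ i, (K i).E = E := fun i => hE i.1
  have hground : ((M θ₀)✶.comap (Prod.snd : T' × α → α)).E = (Matroid.sum' K).E := by
    rw [Matroid.comap_ground_eq, Matroid.dual_ground, hE θ₀, Matroid.sum'_ground_eq]
    ext ⟨i, e⟩
    simp only [mem_preimage, mem_iUnion, mem_image, hKE]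
    constructor
    · intro he
      exact ⟨i, e, he, rfl⟩
    · rintro ⟨j, b, hb, hab⟩
      rw [← (Prod.mk.inj hab).2]
      exact hb
  have hint := intersection_sum' ((M θ₀)✶.comap (Prod.snd : T' × α → α)) K
    (fun i => i.2.2.2) hground
  obtain ⟨P, C, hdj, hPC, S₀, I₀, S, I, hS₀, hI₀C, hI₀, hSb, hIC, hI, hSd, hS₀d, hcov⟩ :=
    pc_data_of_intersection (M θ₀) K E (hE θ₀) hKE hint
  have hθ₀ : θ₀ ∉ T' := fun h => h.2.1 rfl
  refine hasPackingCovering_of_uniform_rest M E hE (insert θ₀ T') ?_ hdj hPC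
    (fun i => if h : i ∈ T' then S ⟨i, h⟩ else S₀) (fun i => if h : i ∈ T' then I ⟨i, h⟩ else I₀)
    ?_ ?_ ?_ ?_ ?_
  · intro i hi
    rw [mem_insert_iff, not_or] at hi
    rcases h i with h1 | ⟨h1, h2⟩ | h1
    · exact absurd h1 hi.1
    · exact absurd ⟨h1, hi.1, h2⟩ hi.2
    · exact h1
  · rintro i (rfl | hi)
    · simpa [hθ₀] using hS₀
    · simpa [hi] using hSb ⟨i, hi⟩
  · rintro i (rfl | hi) j (rfl | hj) hij
    · exact absurd rfl hij
    · simp only [Function.onFun, hθ₀, hj, dif_pos, dif_neg, not_false_eq_true]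
      exact hS₀d ⟨j, hj⟩
    · simp only [Function.onFun, hθ₀, hi, dif_pos, dif_neg, not_false_eq_true]
      exact (hS₀d ⟨i, hi⟩).symm
    · simp only [Function.onFun, hi, hj, dif_pos]
      exact hSd (fun h => hij (congrArg Subtype.val h))
  · rintro i (rfl | hi)
    · simpa [hθ₀] using hI₀C
    · simpa [hi] using hIC ⟨i, hi⟩
  · rintro i (rfl | hi)
    · simpa [hθ₀] using hI₀
    · simpa [hi] using hI ⟨i, hi⟩
  · intro e he
    rcases hcov he with h0 | h1
    · exact mem_iUnion₂.mpr ⟨θ₀, mem_insert _ _, by simpa [hθ₀] using h0⟩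
    · obtain ⟨⟨i, hi⟩, hei⟩ := mem_iUnion.mp h1
      exact mem_iUnion₂.mpr ⟨i, mem_insert_of_mem _ hi, by simpa [hi] using hei⟩

end Vale.Agent.P068
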