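import Vale.Agent.P068.PCBasic

namespace Vale.Agent.P068

open Set
open scoped Matroid Function

variable {α ι : Type*}

/-- From intersection for `(M₀✶ with parallel copies, ⊕ K i)` to packing/covering data for the
family consisting of `M₀` and the `K i`. -/
theorem pc_data_of_intersection (M₀ : Matroid α) (K : ι → Matroid α) (E : Set α)
    (h0 : M₀.E = E) (hK : ∀ i, (K i).E = E)
    (h : SatisfiesIntersection ((M₀✶).comap (Prod.snd : ι × α → α)) (Matroid.sum' K)) :
    ∃ P C : Set α, Disjoint P C ∧ P ∪ C = E ∧ ∃ (S₀ I₀ : Set α) (S I : ι → Set α),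
      M₀.IsBasis S₀ P ∧ I₀ ⊆ C ∧ M₀.Indep (I₀ ∪ S₀) ∧
      (∀ i, (K i).IsBasis (S i) P) ∧ (∀ i, I i ⊆ C) ∧ (∀ i, (K i).Indep (I i ∪ S i)) ∧
      Pairwise (Disjoint on S) ∧ (∀ i, Disjoint S₀ (S i)) ∧ C ⊆ I₀ ∪ ⋃ i, I i := by
  obtain ⟨JM, JN, hdj, hMi, hNi, hcl⟩ := h
  rw [Matroid.comap_indep_iff] at hMi
  obtain ⟨hind, hinj⟩ := hMi
  rw [Matroid.sum'_indep_iff] at hNi
  rw [Matroid.comap_closure_eq, Matroid.comap_ground_eq, Matroid.dual_ground, h0] at hcl
  set A : Set α := Prod.snd '' JM with hA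
  set T : Set α := Prod.snd '' JN with hT
  have hAT : Prod.snd '' (JM ∪ JN) = A ∪ T := image_union _ _ _
  rw [hAT] at hind
  have hdAT : Disjoint A T := by
    rw [Set.disjoint_left]
    rintro e ⟨x, hx, rfl⟩ ⟨y, hy, hxy⟩
    have : y = x := hinj (Or.inr hy) (Or.inl hx) hxy
    exact hdj.notMem_of_mem_left hx (this ▸ hy)
  set F : Set α := M₀✶.closure A with hF
  have hFE : F ⊆ E := by
    have := M₀✶.closure_subset_ground A
    rwa [Matroid.dual_ground, h0] at this
  have hAind : M₀✶.Indep A := hind.subset subset_union_left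
  have hAF : A ⊆ F := M₀✶.subset_closure A hAind.subset_ground
  have hTF : Disjoint F T := by
    rw [Set.disjoint_left]
    intro e heF heT
    have : e ∈ M₀✶.closure A ∩ (A ∪ T) := ⟨heF, Or.inr heT⟩
    rw [hind.closure_inter_eq_self_of_subset subset_union_left] at this
    exact hdAT.notMem_of_mem_left this heT
  have hTE : T ⊆ E := by
    have := (hind.subset subset_union_right).subset_ground
    rwa [Matroid.dual_ground, h0] at this
  set P : Set α := E \ F with hP
  have hdPF : Disjoint P F := disjoint_sdiff_left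
  have hPF : P ∪ F = E := sdiff_union_of_subset hFE
  have hTP : T ⊆ P := fun e he => ⟨hTE he, fun heF => hTF.notMem_of_mem_left heF he⟩
  set S : ι → Set α := fun i => Prod.mk i ⁻¹' JN with hS
  set I : ι → Set α := fun i => Prod.mk i ⁻¹' JM with hI
  have hST : ∀ i, S i ⊆ T := fun i e he => ⟨(i, e), he, rfl⟩
  have hIS : ∀ i, (K i).Indep (I i ∪ S i) := fun i => by
    have := hNi i
    rwa [preimage_union] at this
  have hSind : ∀ i, (K i).Indep (S i) := fun i => (hIS i).subset subset_union_right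
  have hJNind : (Matroid.sum' K).Indep JN := by
    rw [Matroid.sum'_indep_iff]
    exact hSind
  have hSb : ∀ i, (K i).IsBasis (S i) P := by
    intro i
    refine (hSind i).isBasis_of_subset_of_subset_closure ((hST i).trans hTP) ?_
    intro e he
    have hmem : (i, e) ∈ (Prod.snd : ι × α → α) ⁻¹' E := he.1
    rw [← hcl] at hmem
    rcases hmem with h1 | h1
    · exact absurd h1 he.2
    · rw [hJNind.mem_closure_iff'] at h1
      rw [(hSind i).mem_closure_iff']
      refine ⟨(hK i).symm ▸ he.1, fun hins => ?_⟩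
      apply h1.2
      rw [Matroid.sum'_indep_iff]
      intro j
      by_cases hj : j = i
      · subst hj
        have : Prod.mk j ⁻¹' insert (j, e) JN = insert e (S j) := by
          ext x
          simp [hS]
        rw [this]
        exact hins
      · have : Prod.mk j ⁻¹' insert (i, e) JN = S j := by
          ext x
          simp [hS, hj]
        rw [this]
        exact hSind j
  have hAb : M₀✶.IsBasis A F := hAind.isBasis_closure
  -- the part of `M₀`
  have hsp : P ⊆ M₀.closure (P \ T) := by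
    have h1 : (M₀✶ ／ F).Indep T := by
      rw [hAb.contract_indep_iff]
      exact ⟨by rwa [union_comm], hTF⟩
    rw [← Matroid.dual_delete, ← Matroid.coindep_def] at h1
    have h2 := h1.compl_spanning
    rw [Matroid.delete_eq_restrict, Matroid.restrict_ground_eq, h0,
      Matroid.restrict_spanning_iff sdiff_subset (h0.symm ▸ sdiff_subset)] at h2
    exact h2
  obtain ⟨S₀, hS₀⟩ := M₀.exists_isBasis (P \ T) (sdiff_subset.trans (h0.symm ▸ sdiff_subset))
  have hS₀P : M₀.IsBasis S₀ P := by
    refine hS₀.indep.isBasis_of_subset_of_subset_closure (hS₀.subset.trans sdiff_subset) ?_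
    rw [hS₀.closure_eq_closure]
    exact hsp
  have hI₀ : M₀.Indep ((F \ A) ∪ S₀) := by
    have h1 : (M₀✶ ↾ F)✶.IsBase ((M₀✶ ↾ F).E \ A) := hAb.isBase_restrict.compl_isBase_dual
    rw [Matroid.restrict_ground_eq,
      dual_restrict_dual_eq_contract M₀ hdPF (hPF.trans h0.symm)] at h1
    exact (hS₀P.contract_indep_iff.mp h1.indep).1
  refine ⟨P, F, hdPF, hPF, S₀, F \ A, S, I, hS₀P, sdiff_subset, hI₀, hSb, ?_, hIS, ?_, ?_, ?_⟩
  · intro i e he
    exact hAF ⟨(i, e), he, rfl⟩
  · intro i j hij
    simp only [Function.onFun]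
    rw [Set.disjoint_left]
    intro e hei hej
    have : ((i, e) : ι × α) = (j, e) := hinj (Or.inr hei) (Or.inr hej) rfl
    exact hij (Prod.mk.inj this).1
  · intro i
    rw [Set.disjoint_left]
    intro e he0 hei
    exact (hS₀.subset he0).2 (hST i hei)
  · intro e he
    by_cases heA : e ∈ A
    · obtain ⟨⟨i, e'⟩, hx, rfl⟩ := heA
      exact Or.inr (mem_iUnion.mpr ⟨i, hx⟩)
    · exact Or.inl ⟨he, heA⟩

end Vale.Agent.P068
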