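import Vale.Agent.P068.Main
import Vale.Agent.P068.PCTranslate
import Mathlib.Data.Finite.Sigma

namespace Vale.Agent.P068

open Set
open scoped Matroid Function

variable {α β ι : Type*}

lemma NearlyUniform.map {N : Matroid α} (h : NearlyUniform N) (f : α → β) (hf : InjOn f N.E) :
    NearlyUniform (N.map f hf) := by
  intro X hX
  rw [Matroid.map_ground] at hX
  set X₀ : Set α := f ⁻¹' X ∩ N.E with hX₀
  have hXX₀ : f '' X₀ = X := by
    rw [hX₀, image_preimage_inter, inter_eq_left]
    exact hX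
  rcases h X₀ inter_subset_right with ⟨F, hF, hind⟩ | ⟨F, hF, hFE, hsp⟩
  · refine Or.inl ⟨f '' F, hF.image f, (hind.map f hf).subset ?_⟩
    rintro y ⟨hyX, hyF⟩
    rw [← hXX₀] at hyX
    obtain ⟨x, hx, rfl⟩ := hyX
    exact ⟨x, ⟨hx, fun hxF => hyF ⟨x, hxF, rfl⟩⟩, rfl⟩
  · refine Or.inr ⟨f '' F, hF.image f, image_mono hFE, ?_⟩
    rw [← hXX₀, ← image_union, Matroid.spanning_iff_exists_isBase_subset']
    obtain ⟨B, hB, hBs⟩ := hsp.exists_isBase_subset
    exact ⟨⟨f '' B, hB.map hf, image_mono hBs⟩, image_mono hsp.subset_ground⟩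

section

variable (n : ι → ℕ) (N : ∀ i, Fin (n i) → Matroid α)

/-- The summands of all the `K i`, moved to pairwise disjoint copies of the ground set. -/
noncomputable def comp (x : Σ i, Fin (n i)) : Matroid (ι × α) :=
  (N x.1 x.2).map (Prod.mk x.1) (Prod.mk_right_injective x.1).injOn

lemma comp_ground (x : Σ i, Fin (n i)) : (comp n N x).E = Prod.mk x.1 '' (N x.1 x.2).E := rfl

lemma comp_disjoint (hdj : ∀ i, Pairwise (Disjoint on fun c => (N i c).E)) :
    Pairwise (Disjoint on fun x => (comp n N x).E) := by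
  rintro ⟨i, c⟩ ⟨j, d⟩ hne
  simp only [Function.onFun, comp_ground]
  rw [Set.disjoint_left]
  rintro _ ⟨a, ha, rfl⟩ ⟨b, hb, hab⟩
  obtain ⟨hji, hba⟩ := Prod.mk.inj hab
  subst hji
  subst hba
  have hcd : c ≠ d := fun h => hne (by rw [h])
  exact (hdj j hcd).notMem_of_mem_left ha hb

lemma sum'_eq_disjointSigma (hdj : ∀ i, Pairwise (Disjoint on fun c => (N i c).E)) :
    Matroid.sum' (fun i => Matroid.disjointSigma (N i) (hdj i)) =
      Matroid.disjointSigma (comp n N) (comp_disjoint n N hdj) := by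
  have hground : (Matroid.sum' (fun i => Matroid.disjointSigma (N i) (hdj i))).E =
      (Matroid.disjointSigma (comp n N) (comp_disjoint n N hdj)).E := by
    rw [Matroid.sum'_ground_eq, Matroid.disjointSigma_ground_eq]
    ext ⟨i, a⟩
    simp only [Matroid.disjointSigma_ground_eq, mem_iUnion, mem_image, comp_ground, Sigma.exists]
    constructor
    · rintro ⟨j, b, ⟨c, hc⟩, hb⟩
      exact ⟨j, c, b, hc, hb⟩
    · rintro ⟨j, c, b, hc, hb⟩
      exact ⟨j, b, ⟨c, hc⟩, hb⟩
  apply Matroid.ext_indep hground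
  intro I hI
  rw [hground, Matroid.disjointSigma_ground_eq] at hI
  rw [Matroid.sum'_indep_iff, Matroid.disjointSigma_indep_iff, and_iff_left hI]
  have key : ∀ (i : ι) (c : Fin (n i)), (comp n N ⟨i, c⟩).Indep (I ∩ (comp n N ⟨i, c⟩).E) ↔
      (N i c).Indep (Prod.mk i ⁻¹' I ∩ (N i c).E) := by
    intro i c
    rw [comp_ground, ← image_preimage_inter]
    exact Matroid.map_image_indep_iff inter_subset_right
  constructor
  · rintro h ⟨i, c⟩
    rw [key]
    exact ((Matroid.disjointSigma_indep_iff.mp (h i)).1 c)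
  · intro h i
    rw [Matroid.disjointSigma_indep_iff]
    refine ⟨fun c => (key i c).mp (h ⟨i, c⟩), ?_⟩
    intro a ha
    obtain ⟨⟨j, c⟩, hx⟩ := mem_iUnion.mp (hI ha)
    rw [comp_ground] at hx
    obtain ⟨b, hb, hab⟩ := hx
    obtain ⟨hji, hba⟩ := Prod.mk.inj hab
    subst hji
    subst hba
    exact mem_iUnion.mpr ⟨c, hb⟩

end

/-- Intersection for an arbitrary matroid on `ι × α` and the sum of finitely many finite sums of
nearly uniform matroids. -/
theorem intersection_sum' [Finite ι] (Mh : Matroid (ι × α)) (K : ι → Matroid α)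
    (hK : ∀ i, IsFiniteSumNU (K i)) (hE : Mh.E = (Matroid.sum' K).E) :
    SatisfiesIntersection Mh (Matroid.sum' K) := by
  choose n N hdj hNU hKeq using hK
  have hKfun : K = fun i => Matroid.disjointSigma (N i) (hdj i) := funext hKeq
  subst hKfun
  rw [sum'_eq_disjointSigma n N hdj] at hE ⊢
  apply intersection_of_nearlyUniform_sum
  · rw [hE, Matroid.disjointSigma_ground_eq]
  · rintro ⟨i, c⟩
    exact (hNU i c).map _ _

end Vale.Agent.P068
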