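import Vale.Agent.P068.Defs
import Vale.Agent.P068.Aug

namespace Vale.Agent.P068

open Set
open scoped Matroid

variable {α : Type*} {M N : Matroid α} {J : Set α}

/-- If there is no augmenting walk, then `J` witnesses intersection. -/
theorem satisfiesIntersection_of_no_walk (hE : M.E = N.E) (hJM : M.Indep J) (hJN : N.Indep J)
    (h : ∀ n, ∀ x ∈ M.E, x ∉ M.closure J → x ∉ Lev M N J n) : SatisfiesIntersection M N := by
  set Uy : Set α := {y | y ∈ J ∧ ∃ n, ∃ x' ∈ Lev M N J n, Arc M J y x'} with hUy
  have hUyJ : Uy ⊆ J := fun y hy => hy.1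
  refine ⟨Uy, J \ Uy, disjoint_sdiff_right, ?_, ?_, ?_⟩
  · rwa [union_sdiff_cancel hUyJ]
  · rwa [union_sdiff_cancel hUyJ]
  · apply subset_antisymm
    · exact union_subset (M.closure_subset_ground _) (hE ▸ N.closure_subset_ground _)
    · intro e he
      by_cases heJ : e ∈ J
      · by_cases heU : e ∈ Uy
        · exact Or.inl (M.mem_closure_of_mem' heU he)
        · exact Or.inr (N.mem_closure_of_mem' ⟨heJ, heU⟩ (hE ▸ he))
      · by_cases heL : ∃ n, e ∈ Lev M N J n
        · obtain ⟨n, hn⟩ := heL
          left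
          have hecl : e ∈ M.closure J := by
            by_contra hcon
            exact h n e he hcon hn
          apply mem_closure_of_forall_sdiff hJM hUyJ hecl
          intro y hy
          by_contra hcon
          exact hy.2 ⟨hy.1, n, e, hn, ⟨hy.1, hecl, heJ, hcon⟩⟩
        · right
          have hecl : e ∈ N.closure J := by
            by_contra hcon
            exact heL ⟨0, ⟨hE ▸ he, hcon⟩⟩
          apply mem_closure_of_forall_sdiff hJN sdiff_subset hecl
          intro y hy
          have hyU : y ∈ Uy := by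
            by_contra hcon
            exact hy.2 ⟨hy.1, hcon⟩
          obtain ⟨_, n, x', hx', harc⟩ := hyU
          by_contra hcon
          exact heL ⟨n + 1, y, x', ⟨hy.1, hecl, heJ, hcon⟩, harc, hx'⟩

/-- Finite deficiency can be repaired by finitely many augmentations. -/
theorem satisfiesIntersection_of_defect {A : Set α} (hE : M.E = N.E) (hA : A ⊆ M.E) :
    ∀ d : ℕ, ∀ J, M.Indep J → N.Indep J → defect M N A J = d → SatisfiesIntersection M N := by
  intro d
  induction d with
  | zero =>
    intro J hJM hJN hd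
    apply satisfiesIntersection_of_no_walk hE hJM hJN
    intro n x hx hxJ hxL
    obtain ⟨J', _, _, h'⟩ := exists_augment (N := N) hA n J hJM hJN ⟨x, hx, hxJ, hxL⟩
    rw [hd] at h'
    exact absurd h'.symm (by simp)
  | succ d ih =>
    intro J hJM hJN hd
    by_cases hw : ∀ n, ∀ x ∈ M.E, x ∉ M.closure J → x ∉ Lev M N J n
    · exact satisfiesIntersection_of_no_walk hE hJM hJN hw
    · push Not at hw
      obtain ⟨n, x, hx, hxJ, hxL⟩ := hw
      obtain ⟨J', hJ'M, hJ'N, h'⟩ := exists_augment (N := N) hA n J hJM hJN ⟨x, hx, hxJ, hxL⟩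
      apply ih J' hJ'M hJ'N
      rw [hd] at h'
      have : ((d : ℕ∞) + 1) = defect M N A J' + 1 := by
        rw [← h']; push_cast; rfl
      exact (ENat.add_left_injective_of_ne_top (by simp) this).symm

end Vale.Agent.P068

namespace Vale.Agent.P068

open Set
open scoped Matroid

variable {α : Type*} {M N : Matroid α} {J : Set α}

lemma relRk_lt_top {C X G : Set α} (hG : G.Finite) (hX : X ⊆ M.closure (C ∪ G)) :
    relRk M C X < ⊤ := by
  unfold relRk
  have h1 : X ∩ (M ／ C).E ⊆ (M ／ C).closure G := by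
    rintro z ⟨hzX, hzE⟩
    rw [Matroid.contract_closure_eq, union_comm]
    exact ⟨hX hzX, hzE.2⟩
  calc (M ／ C).eRk X = (M ／ C).eRk (X ∩ (M ／ C).E) := ((M ／ C).eRk_inter_ground X).symm
    _ ≤ (M ／ C).eRk ((M ／ C).closure G) := (M ／ C).eRk_mono h1
    _ = (M ／ C).eRk G := (M ／ C).eRk_closure_eq G
    _ ≤ G.encard := (M ／ C).eRk_le_encard G
    _ < ⊤ := hG.encard_lt_top

/-- An almost-solution (up to a finite set `G`) can be repaired to a solution. -/
theorem satisfiesIntersection_of_almost (hE : M.E = N.E) (hJM : M.Indep J) (hJN : N.Indep J)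
    {A G : Set α} (hA : A ⊆ M.E) (hG : G.Finite) (hAM : A ⊆ M.closure ((J ∩ A) ∪ G))
    (hAN : N.E \ A ⊆ N.closure ((J \ A) ∪ G)) : SatisfiesIntersection M N := by
  have h1 := relRk_lt_top hG hAM
  have h2 := relRk_lt_top hG hAN
  have h3 : defect M N A J < ⊤ := by
    unfold defect
    exact ENat.add_lt_top.mpr ⟨h1, h2⟩
  obtain ⟨d, hd⟩ := ENat.ne_top_iff_exists.mp h3.ne
  exact satisfiesIntersection_of_defect hE hA d J hJM hJN hd.symm

end Vale.Agent.P068
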