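import Mathlib.Combinatorics.Matroid.Sum
import Mathlib.Combinatorics.Matroid.Minor.Contract
import Mathlib.Combinatorics.Matroid.Rank.ENat

namespace Vale.Agent.P068

open Set

variable {α : Type*} {M N : Matroid α} {J : Set α} {x y x₀ y₁ x₁ : α}

/-- `Arc M J y x`: the element `y` of `J` lies on the fundamental circuit of `x` with respect
to `J`. -/
def Arc (M : Matroid α) (J : Set α) (y x : α) : Prop :=
  y ∈ J ∧ x ∈ M.closure J ∧ x ∉ J ∧ x ∉ M.closure (J \ {y})

lemma swap_indep_of_arc (hJ : N.Indep J) (h : Arc N J y₁ x₀) :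
    N.Indep (insert x₀ (J \ {y₁})) := by
  obtain ⟨hy, hx, hxJ, hxy⟩ := h
  rw [(hJ.subset sdiff_subset).insert_indep_iff]
  exact Or.inl ⟨N.closure_subset_ground _ hx, hxy⟩

lemma swap_closure_of_arc (h : Arc N J y₁ x₀) :
    N.closure (insert x₀ (J \ {y₁})) = N.closure J := by
  obtain ⟨hy, hx, hxJ, hxy⟩ := h
  have h1 : x₀ ∈ N.closure (insert y₁ (J \ {y₁})) \ N.closure (J \ {y₁}) := by
    rw [insert_sdiff_singleton, insert_eq_of_mem hy]
    exact ⟨hx, hxy⟩
  rw [Matroid.closure_insert_congr h1, insert_sdiff_singleton, insert_eq_of_mem hy]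

/-- arcs of `N` survive a swap along an `N`-arc, provided the new element does not use `y`. -/
lemma arc_swap_of_arc (hJ : N.Indep J) (h0 : Arc N J y₁ x₀) (h : Arc N J y x)
    (hx0 : x₀ ∈ N.closure (J \ {y})) (hne : x ≠ x₀) :
    Arc N (insert x₀ (J \ {y₁})) y x := by
  have hyy : y ≠ y₁ := by
    rintro rfl
    exact h0.2.2.2 hx0
  refine ⟨Or.inr ⟨h.1, hyy⟩, ?_, ?_, ?_⟩
  · rw [swap_closure_of_arc h0]; exact h.2.1
  · rintro (h1 | h1)
    · exact hne h1
    · exact h.2.2.1 h1.1
  · intro hmem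
    apply h.2.2.2
    have hsub : insert x₀ (J \ {y₁}) \ {y} ⊆ N.closure (J \ {y}) := by
      rintro z ⟨(rfl | hz), hzy⟩
      · exact hx0
      · exact N.mem_closure_of_mem' ⟨hz.1, hzy⟩ (hJ.subset_ground hz.1)
    exact N.closure_subset_closure_of_subset_closure hsub hmem

/-- swapping in a source element keeps independence. -/
lemma swap_indep_of_source (hJ : M.Indep J) (hx0 : x₀ ∈ M.E) (hx0J : x₀ ∉ M.closure J) :
    M.Indep (insert x₀ (J \ {y₁})) := by
  have h1 : M.Indep (insert x₀ J) := by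
    rw [hJ.insert_indep_iff]; exact Or.inl ⟨hx0, hx0J⟩
  exact h1.subset (insert_subset_insert sdiff_subset)

/-- after swapping a source `x₀` for `y₁`, the head of an `M`-arc from `y₁` becomes a source. -/
lemma source_swap (hJ : M.Indep J) (hx0J : x₀ ∉ M.closure J) (h : Arc M J y₁ x₁) :
    x₁ ∉ M.closure (insert x₀ (J \ {y₁})) := by
  intro hmem
  have h1 : x₀ ∈ M.closure (insert x₁ (J \ {y₁})) := Matroid.mem_closure_insert h.2.2.2 hmem
  apply hx0J
  have hsub : insert x₁ (J \ {y₁}) ⊆ M.closure J := by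
    rintro z (rfl | hz)
    · exact h.2.1
    · exact M.mem_closure_of_mem' hz.1 (hJ.subset_ground hz.1)
  exact M.closure_subset_closure_of_subset_closure hsub h1

/-- arcs of `M` survive swapping a source `x₀` for `y₁`, provided the head does not use `y₁`. -/
lemma arc_swap_of_source (hJ : M.Indep J) (hx0J : x₀ ∉ M.closure J) (h : Arc M J y x)
    (hx : x ∈ M.closure (J \ {y₁})) :
    Arc M (insert x₀ (J \ {y₁})) y x := by
  have hyy : y ≠ y₁ := by
    rintro rfl
    exact h.2.2.2 hx
  refine ⟨Or.inr ⟨h.1, hyy⟩, ?_, ?_, ?_⟩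
  · exact M.closure_subset_closure (subset_insert _ _) hx
  · rintro (h1 | h1)
    · exact hx0J (h1 ▸ h.2.1)
    · exact h.2.2.1 h1.1
  · intro hmem
    have hx0y : x₀ ≠ y := by
      rintro rfl
      exact hx0J (M.mem_closure_of_mem' h.1 (hJ.subset_ground h.1))
    have heq : insert x₀ (J \ {y₁}) \ {y} = insert x₀ ((J \ {y₁}) \ {y}) := by
      rw [insert_sdiff_of_notMem _ (by simpa using hx0y)]
    rw [heq] at hmem
    have hnot : x ∉ M.closure ((J \ {y₁}) \ {y}) := fun h' =>
      h.2.2.2 (M.closure_subset_closure (sdiff_subset_sdiff_left sdiff_subset) h')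
    have h1 : x₀ ∈ M.closure (insert x ((J \ {y₁}) \ {y})) :=
      Matroid.mem_closure_insert hnot hmem
    apply hx0J
    have hsub : insert x ((J \ {y₁}) \ {y}) ⊆ M.closure J := by
      rintro z (rfl | hz)
      · exact h.2.1
      · exact M.mem_closure_of_mem' hz.1.1 (hJ.subset_ground hz.1.1)
    exact M.closure_subset_closure_of_subset_closure hsub h1

/-- if `e` is spanned by `J` and avoids using every `y` outside `S`, then `S` spans `e`. -/
lemma mem_closure_of_forall_sdiff (hJ : M.Indep J) {S : Set α} (hS : S ⊆ J) {e : α}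
    (he : e ∈ M.closure J) (h : ∀ y ∈ J \ S, e ∈ M.closure (J \ {y})) : e ∈ M.closure S := by
  obtain hemp | hne := (J \ S).eq_empty_or_nonempty
  · have : J = S := subset_antisymm (sdiff_eq_empty.mp hemp) hS
    rwa [← this]
  · have hS' : S = ⋂ y ∈ J \ S, J \ {y} := by
      ext z
      simp only [mem_iInter, mem_sdiff, mem_singleton_iff]
      constructor
      · intro hz y hy
        exact ⟨hS hz, fun hzy => hy.2 (hzy ▸ hz)⟩
      · intro hz
        by_contra hzS
        obtain ⟨y, hy⟩ := hne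
        have hzJ : z ∈ J := (hz y hy).1
        exact (hz z ⟨hzJ, hzS⟩).2 rfl
    rw [hS', Matroid.closure_biInter_eq_biInter_closure_of_biUnion_indep hne]
    · simpa only [mem_iInter] using h
    · exact hJ.subset (iUnion₂_subset fun y _ => sdiff_subset)

end Vale.Agent.P068
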